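/-
helper12: module (G1) STRIPS of the row-211 team build (S0324-S0329).
A finite cover by cylinders with triangle bases is turned into a cover by cylinders with
parallelogram bases, each triangle being cut into `n` strips; the total of the square roots of
the Gram determinants is multiplied by `(1 + 1/n) / 2`.
-/
import Mathlib

set_option autoImplicit false

namespace Crest.Agent.Helper12

section General

variable {E : Type*} [AddCommGroup E] [Module ℝ E]

/-- Every point of a triangle is `p + s (q - p) + t (r - p)` with `s, t ≥ 0`, `s + t ≤ 1`. -/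
theorem exists_coords_of_mem_triangle {p q r y : E} (hy : y ∈ convexHull ℝ ({p, q, r} : Set E)) :
    ∃ s t : ℝ, 0 ≤ s ∧ 0 ≤ t ∧ s + t ≤ 1 ∧ y = p + s • (q - p) + t • (r - p) := by
  rw [convexHull_insert (Set.insert_nonempty q {r}), convexHull_pair] at hy
  simp only [mem_convexJoin, Set.mem_singleton_iff, exists_eq_left] at hy
  obtain ⟨z, ⟨a, b, ha, hb, hab, rfl⟩, a', b', ha', hb', hab', rfl⟩ := hy
  refine ⟨b' * a, b' * b, mul_nonneg hb' ha, mul_nonneg hb' hb, ?_, ?_⟩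
  · have h : b' * a + b' * b = b' := by rw [← mul_add, hab, mul_one]
    linarith
  · obtain rfl : a = 1 - b := by linarith
    obtain rfl : a' = 1 - b' := by linarith
    module

/-- Every point of a triangle lies in one of the `n` strips. -/
theorem exists_strip_of_mem_triangle {p q r y : E} (hy : y ∈ convexHull ℝ ({p, q, r} : Set E))
    (n : ℕ) (hn : 0 < n) :
    ∃ l : ℕ, l < n ∧ ∃ s ∈ Set.Icc (0 : ℝ) 1, ∃ t ∈ Set.Icc (0 : ℝ) 1,
      y = (p + ((l : ℝ) / n) • (q - p)) + s • ((1 / (n : ℝ)) • (q - p))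
        + t • ((1 - (l : ℝ) / n) • (r - p)) := by
  obtain ⟨s, t, hs, ht, hst, rfl⟩ := exists_coords_of_mem_triangle hy
  have hnpos : (0 : ℝ) < n := by exact_mod_cast hn
  have hsn : 0 ≤ s * n := mul_nonneg hs hnpos.le
  set l : ℕ := min ⌊s * n⌋₊ (n - 1) with hl_def
  have hl_lt : l < n := lt_of_le_of_lt (min_le_right _ _) (Nat.sub_lt hn Nat.one_pos)
  have hl_le : (l : ℝ) ≤ s * n := by
    have h1 : (l : ℝ) ≤ (⌊s * n⌋₊ : ℝ) := by exact_mod_cast min_le_left _ _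
    exact h1.trans (Nat.floor_le hsn)
  have hl_ge : s * n ≤ (l : ℝ) + 1 := by
    by_cases hcase : ⌊s * n⌋₊ ≤ n - 1
    · have : l = ⌊s * n⌋₊ := min_eq_left hcase
      rw [this]
      exact (Nat.lt_floor_add_one (s * n)).le
    · have : l = n - 1 := min_eq_right (le_of_not_ge hcase)
      rw [this]
      have h1 : ((n - 1 : ℕ) : ℝ) + 1 = n := by
        have : n - 1 + 1 = n := Nat.sub_add_cancel hn
        exact_mod_cast this
      rw [h1]
      have : s ≤ 1 := by linarith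
      nlinarith
  have hln : (l : ℝ) < n := by exact_mod_cast hl_lt
  have hpos : 0 < 1 - (l : ℝ) / n := by
    rw [sub_pos, div_lt_one hnpos]; exact hln
  have hls : (l : ℝ) / n ≤ s := by
    rw [div_le_iff₀ hnpos]; exact hl_le
  refine ⟨l, hl_lt, s * n - l, ⟨by linarith, by linarith⟩, t / (1 - (l : ℝ) / n),
    ⟨div_nonneg ht hpos.le, ?_⟩, ?_⟩
  · rw [div_le_one hpos]; linarith
  · have e1 : (s * n - l) * (1 / (n : ℝ)) = s - (l : ℝ) / n := by
      field_simp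
    have e2 : t / (1 - (l : ℝ) / n) * (1 - (l : ℝ) / n) = t :=
      div_mul_cancel₀ t hpos.ne'
    rw [smul_smul, smul_smul, e1, e2]
    module

end General

theorem sum_range_cast (n : ℕ) : ∑ l ∈ Finset.range n, (l : ℝ) = (n : ℝ) * ((n : ℝ) - 1) / 2 := by
  induction n with
  | zero => simp
  | succ k ih => rw [Finset.sum_range_succ, ih]; push_cast; ring

theorem sum_strip_weights (n : ℕ) (hn : 0 < n) :
    ∑ l : Fin n, (1 / (n : ℝ)) * (1 - ((l : ℕ) : ℝ) / n) = (1 + 1 / (n : ℝ)) / 2 := by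
  have hnpos : (0 : ℝ) < n := by exact_mod_cast hn
  rw [Fin.sum_univ_eq_sum_range (fun l : ℕ => (1 / (n : ℝ)) * (1 - (l : ℝ) / n)) n]
  have : ∀ l ∈ Finset.range n, (1 / (n : ℝ)) * (1 - (l : ℝ) / n)
      = 1 / (n : ℝ) - (1 / (n : ℝ) ^ 2) * (l : ℝ) := by
    intro l _
    field_simp
  rw [Finset.sum_congr rfl this, Finset.sum_sub_distrib, ← Finset.mul_sum, sum_range_cast]
  simp only [Finset.sum_const, Finset.card_range, nsmul_eq_mul]
  field_simp
  ring

section Euclid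

local notation "E3" => EuclideanSpace ℝ (Fin 3)

/-- The Gram determinant of the edge vectors of a strip. -/
theorem gram_strip (v w : E3) (α β : ℝ) :
    ‖α • v‖ ^ 2 * ‖β • w‖ ^ 2 - inner ℝ (α • v) (β • w) ^ 2
      = (α * β) ^ 2 * (‖v‖ ^ 2 * ‖w‖ ^ 2 - inner ℝ v w ^ 2) := by
  rw [norm_smul, norm_smul, real_inner_smul_left, real_inner_smul_right, Real.norm_eq_abs,
    Real.norm_eq_abs, mul_pow, mul_pow, sq_abs, sq_abs]
  ring

/-- **(G1) STRIPS.** A finite family of cylinders with nondegenerate triangle bases is covered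
by a finite family of cylinders with nondegenerate parallelogram bases whose total
`√Gram` is `(1 + 1/n)` times the total `√Gram / 2` of the triangles. -/
theorem strips (m : ℕ) (u p q r : Fin m → E3) (hu : ∀ i, ‖u i‖ = 1)
    (hperp : ∀ i, inner ℝ (p i) (u i) = 0 ∧ inner ℝ (q i) (u i) = 0 ∧ inner ℝ (r i) (u i) = 0)
    (hnd : ∀ i, 0 < ‖q i - p i‖ ^ 2 * ‖r i - p i‖ ^ 2 - inner ℝ (q i - p i) (r i - p i) ^ 2)
    (n : ℕ) (hn : 0 < n) :
    ∃ (k : ℕ) (u' c a b : Fin k → E3),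
      (∀ i, ‖u' i‖ = 1) ∧
      (∀ i, inner ℝ (c i) (u' i) = 0 ∧ inner ℝ (a i) (u' i) = 0 ∧ inner ℝ (b i) (u' i) = 0) ∧
      (∀ i, 0 < ‖a i‖ ^ 2 * ‖b i‖ ^ 2 - inner ℝ (a i) (b i) ^ 2) ∧
      (⋃ i, {x : E3 | ∃ y ∈ convexHull ℝ {p i, q i, r i}, ∃ t : ℝ, x = y + t • u i}) ⊆
        ⋃ i, {x : E3 | ∃ s ∈ Set.Icc (0 : ℝ) 1, ∃ t ∈ Set.Icc (0 : ℝ) 1, ∃ τ : ℝ,
          x = c i + s • a i + t • b i + τ • u' i} ∧
      ∑ i, Real.sqrt (‖a i‖ ^ 2 * ‖b i‖ ^ 2 - inner ℝ (a i) (b i) ^ 2) =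
        (1 + 1 / (n : ℝ)) *
          ∑ i, Real.sqrt (‖q i - p i‖ ^ 2 * ‖r i - p i‖ ^ 2
            - inner ℝ (q i - p i) (r i - p i) ^ 2) / 2 := by
  have hnpos : (0 : ℝ) < n := by exact_mod_cast hn
  let e : Fin m × Fin n ≃ Fin (m * n) := finProdFinEquiv
  -- the data attached to a pair (triangle, strip)
  let U : Fin m × Fin n → E3 := fun z => u z.1
  let C : Fin m × Fin n → E3 := fun z => p z.1 + (((z.2 : ℕ) : ℝ) / n) • (q z.1 - p z.1)
  let A : Fin m × Fin n → E3 := fun z => (1 / (n : ℝ)) • (q z.1 - p z.1)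
  let B : Fin m × Fin n → E3 := fun z => (1 - ((z.2 : ℕ) : ℝ) / n) • (r z.1 - p z.1)
  have hwpos : ∀ z : Fin m × Fin n, 0 < 1 - ((z.2 : ℕ) : ℝ) / n := by
    intro z
    have : ((z.2 : ℕ) : ℝ) < n := by exact_mod_cast z.2.isLt
    rw [sub_pos, div_lt_one hnpos]; exact this
  have hgram : ∀ z : Fin m × Fin n,
      ‖A z‖ ^ 2 * ‖B z‖ ^ 2 - inner ℝ (A z) (B z) ^ 2
        = ((1 / (n : ℝ)) * (1 - ((z.2 : ℕ) : ℝ) / n)) ^ 2 *
          (‖q z.1 - p z.1‖ ^ 2 * ‖r z.1 - p z.1‖ ^ 2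
            - inner ℝ (q z.1 - p z.1) (r z.1 - p z.1) ^ 2) := fun z => gram_strip _ _ _ _
  refine ⟨m * n, fun i => U (e.symm i), fun i => C (e.symm i), fun i => A (e.symm i),
    fun i => B (e.symm i), fun i => hu _, ?_, ?_, ?_, ?_⟩
  · intro i
    obtain ⟨h1, h2, h3⟩ := hperp (e.symm i).1
    refine ⟨?_, ?_, ?_⟩
    · show inner ℝ (p (e.symm i).1 + _ • (q (e.symm i).1 - p (e.symm i).1)) (u (e.symm i).1) = 0
      rw [inner_add_left, real_inner_smul_left, inner_sub_left, h1, h2]; simp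
    · show inner ℝ ((1 / (n : ℝ)) • (q (e.symm i).1 - p (e.symm i).1)) (u (e.symm i).1) = 0
      rw [real_inner_smul_left, inner_sub_left, h1, h2]; simp
    · show inner ℝ (_ • (r (e.symm i).1 - p (e.symm i).1)) (u (e.symm i).1) = 0
      rw [real_inner_smul_left, inner_sub_left, h1, h3]; simp
  · intro i
    rw [hgram]
    have h1 := hwpos (e.symm i)
    have h2 : 0 < (1 / (n : ℝ)) * (1 - (((e.symm i).2 : ℕ) : ℝ) / n) :=
      mul_pos (one_div_pos.2 hnpos) h1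
    exact mul_pos (pow_pos h2 2) (hnd _)
  · intro x hx
    rw [Set.mem_iUnion] at hx
    obtain ⟨i, y, hy, t, rfl⟩ := hx
    obtain ⟨l, hl, s, hs, t', ht', hyeq⟩ := exists_strip_of_mem_triangle hy n hn
    rw [Set.mem_iUnion]
    refine ⟨e (i, ⟨l, hl⟩), s, hs, t', ht', t, ?_⟩
    simp only [Equiv.symm_apply_apply]
    rw [hyeq]
  · rw [← Equiv.sum_comp e
      (fun i => Real.sqrt (‖A (e.symm i)‖ ^ 2 * ‖B (e.symm i)‖ ^ 2
        - inner ℝ (A (e.symm i)) (B (e.symm i)) ^ 2))]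
    simp only [Equiv.symm_apply_apply]
    rw [Fintype.sum_prod_type]
    have hterm : ∀ (i : Fin m) (l : Fin n),
        Real.sqrt (‖A (i, l)‖ ^ 2 * ‖B (i, l)‖ ^ 2 - inner ℝ (A (i, l)) (B (i, l)) ^ 2)
          = ((1 / (n : ℝ)) * (1 - ((l : ℕ) : ℝ) / n)) *
            Real.sqrt (‖q i - p i‖ ^ 2 * ‖r i - p i‖ ^ 2
              - inner ℝ (q i - p i) (r i - p i) ^ 2) := by
      intro i l
      rw [hgram (i, l)]
      have h2 : 0 ≤ (1 / (n : ℝ)) * (1 - ((l : ℕ) : ℝ) / n) :=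
        (mul_pos (one_div_pos.2 hnpos) (hwpos (i, l))).le
      rw [Real.sqrt_mul (sq_nonneg _), Real.sqrt_sq h2]
    simp only [hterm]
    simp only [← Finset.sum_mul]
    rw [sum_strip_weights n hn, ← Finset.mul_sum, ← Finset.sum_div]
    ring

end Euclid

end Crest.Agent.Helper12
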